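import Mathlib

/-! # Torus packets of totally real fields: definitions

Throughout `n = k + 1`. -/

namespace Vale.Agent.TorusPackets

open MeasureTheory Filter Topology Matrix

/-- `SL_n(ℤ)` as a subgroup of `SL_n(ℝ)`. -/
def Gam (k : ℕ) : Subgroup (SpecialLinearGroup (Fin (k + 1)) ℝ) :=
  (SpecialLinearGroup.map (Int.castRingHom ℝ)).range

/-- `X_n = SL_n(ℤ) \ SL_n(ℝ)`, `n = k + 1`. -/
def X (k : ℕ) : Type :=
  Quotient (MulAction.orbitRel (Gam k) (SpecialLinearGroup (Fin (k + 1)) ℝ))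

/-- The quotient topology. -/
instance (k : ℕ) : TopologicalSpace (X k) := instTopologicalSpaceQuotient

instance (k : ℕ) : MeasurableSpace (X k) := borel (X k)

/-- The point `SL_n(ℤ) g` of `X_n`. -/
def proj {k : ℕ} (g : SpecialLinearGroup (Fin (k + 1)) ℝ) : X k := Quotient.mk _ g

/-- The right action of `h ∈ SL_n(ℝ)` on `X_n`: `SL_n(ℤ) g ↦ SL_n(ℤ) g h`. -/
noncomputable def act {k : ℕ} (h : SpecialLinearGroup (Fin (k + 1)) ℝ) (p : X k) : X k :=
  proj (p.out * h)

/-- `m` is an `SL_n(ℝ)`-invariant Borel probability measure on `X_n` (that is, `m = m_n`). -/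
def IsInvariantProb {k : ℕ} (m : Measure (X k)) : Prop :=
  IsProbabilityMeasure m ∧ ∀ h, Measure.map (act h) m = m

/-- The element `diag(e^{u_1}, …, e^{u_k}, e^{-(u_1 + … + u_k)})` of `A_n`. -/
noncomputable def diagA {k : ℕ} (u : Fin k → ℝ) : SpecialLinearGroup (Fin (k + 1)) ℝ :=
  ⟨Matrix.diagonal (Fin.snoc (α := fun _ => ℝ) (fun i => Real.exp (u i)) (Real.exp (-∑ i, u i))), by
    rw [Matrix.det_diagonal, Fin.prod_univ_castSucc]
    simp [← Real.exp_sum, ← Real.exp_add]⟩

/-- The `A_n`-orbit of a point. -/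
noncomputable def orbitA {k : ℕ} (p : X k) : Set (X k) := Set.range fun u => act (diagA u) p

/-- The volume of an orbit `S` for the Haar measure `du_1 … du_k`: the covolume of its group of
periods, i.e. the least measure of a measurable set whose translates by the periods cover. -/
noncomputable def vol {k : ℕ} (S : Set (X k)) : ENNReal :=
  sInf {r | ∃ F : Set (Fin k → ℝ), MeasurableSet F ∧
    (∀ v, ∃ u, (∀ p ∈ S, act (diagA u) p = p) ∧ v + u ∈ F) ∧ r = volume F}

/-- `ν` is an `A_n`-invariant probability measure carried by `S`. -/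
def IsOrbitProb {k : ℕ} (S : Set (X k)) (ν : Measure (X k)) : Prop :=
  IsProbabilityMeasure ν ∧ ν Sᶜ = 0 ∧ ∀ u, Measure.map (act (diagA u)) ν = ν

open Classical in
/-- The invariant probability measure `ν_S` of a compact orbit `S`. -/
noncomputable def orbitProb {k : ℕ} (S : Set (X k)) : Measure (X k) :=
  if h : ∃ ν, IsOrbitProb S ν then h.choose else 0

variable {K : Type} [Field K]

/-- `O` is an order of `K`: a full-rank subring consisting of algebraic integers. -/
def IsOrder [NumberField K] (O : Subring K) : Prop :=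
  (∀ x ∈ O, IsIntegral ℤ x) ∧ Submodule.span ℚ (O : Set K) = ⊤

/-- `|Disc O| = |Disc K| [O_K : O]²`. -/
noncomputable def absDisc [NumberField K] (O : Subring K) : ℕ :=
  (NumberField.discr K).natAbs *
    (O.comap (algebraMap (NumberField.RingOfIntegers K) K)).toAddSubgroup.index ^ 2

/-- `I` is a proper invertible fractional `O`-ideal: `{α : α I ⊆ I} = O`, and `I J = O` for
some `J`. -/
def IsPacketIdeal (O : Subring K) (I : AddSubgroup K) : Prop :=
  (∀ α, α ∈ O ↔ ∀ x ∈ I, α * x ∈ I) ∧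
    ∃ J : AddSubgroup K, AddSubgroup.closure {z | ∃ x ∈ I, ∃ y ∈ J, z = x * y} = O.toAddSubgroup

/-- The packet: the set of the orbits `Λ_I w A_n`, where `w = diag(w_1, …, w_n)` is a matrix of
signs and `Λ_I w = ℤ^n g` is the rescaling `c σ(I) w`, `c > 0`, of covolume one. -/
def packet {k : ℕ} (O : Subring K) (σ : Fin (k + 1) ≃ (K →+* ℝ)) : Set (Set (X k)) :=
  {S | ∃ I, IsPacketIdeal O I ∧ ∃ (w : Fin (k + 1) → ℤˣ) (c : ℝ)
    (g : SpecialLinearGroup (Fin (k + 1)) ℝ), 0 < c ∧
    {v | ∃ z : Fin (k + 1) → ℤ, v = (fun i => (z i : ℝ)) ᵥ* g.1} =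
      {v | ∃ α ∈ I, ∀ j, v j = c * (((w j : ℤ) : ℝ) * σ j α)} ∧ S = orbitA (proj g)}

/-- The packet measure `(∑ vol(S) ν_S) / (∑ vol(S))`, sums over the orbits `S` of the packet. -/
noncomputable def packetMeasure {k : ℕ} (O : Subring K) (σ : Fin (k + 1) ≃ (K →+* ℝ)) :
    Measure (X k) :=
  (∑' S : packet O σ, vol S.1)⁻¹ • Measure.sum fun S : packet O σ => vol S.1 • orbitProb S.1

/-- Weak convergence `μ_i → m`: convergence of the integrals of continuous functions of compact
support, and no escape of mass. -/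
def ConvergesTo {k : ℕ} (μ : ℕ → Measure (X k)) (m : Measure (X k)) : Prop :=
  (∀ f : X k → ℝ, Continuous f → HasCompactSupport f →
    Tendsto (fun i => ∫ x, f x ∂(μ i)) atTop (𝓝 (∫ x, f x ∂m))) ∧
  ∀ ε : ℝ, 0 < ε → ∃ C : Set (X k), IsCompact C ∧ ∀ᶠ i in atTop, 1 - ε ≤ (μ i C).toReal

end Vale.Agent.TorusPackets
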