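import Mathlib

/-! # Totally real polynomials `Q ∘ h` of composite degree, Eisenstein at 2 -/

namespace Vale.Agent.TorusPackets

open Polynomial

/-- A real polynomial of degree `b` whose values at `b + 1` increasing points alternate in sign
splits. -/
theorem splits_of_alternate (b : ℕ) (P : ℝ[X]) (hdeg : P.natDegree = b) (hP : P ≠ 0)
    (x : ℕ → ℝ) (hx : StrictMono x) (hs : ∀ k < b, P.eval (x k) * P.eval (x (k + 1)) < 0) :
    P.Splits := by
  have h1 : ∀ k < b, ∃ r ∈ Set.Ioo (x k) (x (k + 1)), P.eval r = 0 := by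
    intro k hk
    have hlt := hx (Nat.lt_succ_self k)
    have h2 := hs k hk
    rcases mul_neg_iff.1 h2 with ⟨h3, h4⟩ | ⟨h3, h4⟩
    · have := intermediate_value_Ioo' hlt.le (f := fun t => P.eval t) P.continuous.continuousOn
      obtain ⟨r, hr, hr0⟩ := this ⟨h4, h3⟩
      exact ⟨r, hr, hr0⟩
    · have := intermediate_value_Ioo hlt.le (f := fun t => P.eval t) P.continuous.continuousOn
      obtain ⟨r, hr, hr0⟩ := this ⟨h3, h4⟩
      exact ⟨r, hr, hr0⟩
  choose! r hr hr0 using h1
  rw [splits_iff_card_roots]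
  apply le_antisymm (card_roots' P)
  rw [hdeg]
  have hinj : Set.InjOn r (Finset.range b : Set ℕ) := by
    intro k hk l hl hkl
    by_contra hne
    have hk' := Finset.mem_range.1 hk
    have hl' := Finset.mem_range.1 hl
    rcases lt_or_gt_of_ne hne with h | h
    · have a1 := (hr k hk').2
      have a2 := (hr l hl').1
      have a3 : x (k + 1) ≤ x l := hx.monotone h
      rw [hkl] at a1
      linarith
    · have a1 := (hr l hl').2
      have a2 := (hr k hk').1
      have a3 : x (l + 1) ≤ x k := hx.monotone h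
      rw [← hkl] at a1
      linarith
  have hsub : (Finset.range b).image r ⊆ P.roots.toFinset := by
    intro y hy
    obtain ⟨k, hk, rfl⟩ := Finset.mem_image.1 hy
    rw [Multiset.mem_toFinset, mem_roots hP]
    exact hr0 k (Finset.mem_range.1 hk)
  calc b = ((Finset.range b).image r).card := by
        rw [Finset.card_image_of_injOn hinj, Finset.card_range]
    _ ≤ P.roots.toFinset.card := Finset.card_le_card hsub
    _ ≤ P.roots.card := Multiset.toFinset_card_le _

/-- `∏_{j<b} (X - 2 L j)` over the integers. -/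
noncomputable def pz (L : ℤ) (b : ℕ) : ℤ[X] := ∏ j ∈ Finset.range b, (X - C (2 * L * j))

theorem pz_monic (L : ℤ) (b : ℕ) : (pz L b).Monic :=
  monic_prod_of_monic _ _ fun _ _ => monic_X_sub_C _

theorem pz_natDegree (L : ℤ) (b : ℕ) : (pz L b).natDegree = b := by
  unfold pz
  rw [natDegree_prod_of_monic _ _ fun _ _ => monic_X_sub_C _]
  simp only [natDegree_X_sub_C, Finset.sum_const, Finset.card_range, smul_eq_mul, mul_one]

/-- Value of `pz` (as a real polynomial) at `(2k-1)L`, up to the sign `(-1)^(b-k)` at least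
`L^b`. -/
theorem pz_eval (L : ℤ) (hL : 0 < L) (b k : ℕ) (hk : k ≤ b) :
    (L : ℝ) ^ b ≤ (-1) ^ (b - k) * ((pz L b).map (Int.castRingHom ℝ)).eval ((2 * k - 1) * L : ℝ) := by
  have hLr : (0 : ℝ) < L := by exact_mod_cast hL
  have e : ((pz L b).map (Int.castRingHom ℝ)).eval ((2 * k - 1) * L : ℝ)
      = ∏ j ∈ Finset.range b, ((L : ℝ) * (2 * ((k : ℝ) - j) - 1)) := by
    unfold pz
    rw [Polynomial.map_prod, eval_prod]
    apply Finset.prod_congr rfl
    intro j _
    simp
    ring
  rw [e]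
  have hsplit : ∏ j ∈ Finset.range b, ((L : ℝ) * (2 * ((k : ℝ) - j) - 1))
      = (∏ j ∈ Finset.range k, ((L : ℝ) * (2 * ((k : ℝ) - j) - 1)))
        * ∏ j ∈ Finset.Ico k b, ((L : ℝ) * (2 * ((k : ℝ) - j) - 1)) :=
    (Finset.prod_range_mul_prod_Ico _ hk).symm
  rw [hsplit]
  have h2 : ((-1 : ℝ)) ^ (b - k) * ∏ j ∈ Finset.Ico k b, ((L : ℝ) * (2 * ((k : ℝ) - j) - 1))
      = ∏ j ∈ Finset.Ico k b, ((L : ℝ) * (2 * ((j : ℝ) - k) + 1)) := by
    have : ((-1 : ℝ)) ^ (b - k) = ∏ _j ∈ Finset.Ico k b, (-1 : ℝ) := by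
      rw [Finset.prod_const, Nat.card_Ico]
    rw [this, ← Finset.prod_mul_distrib]
    apply Finset.prod_congr rfl
    intro j _
    ring
  have h3 : (L : ℝ) ^ k ≤ ∏ j ∈ Finset.range k, ((L : ℝ) * (2 * ((k : ℝ) - j) - 1)) := by
    calc (L : ℝ) ^ k = ∏ _j ∈ Finset.range k, (L : ℝ) := by simp
      _ ≤ _ := by
        apply Finset.prod_le_prod
        · intro i _; exact hLr.le
        · intro j hj
          have hj' : (j : ℝ) + 1 ≤ k := by exact_mod_cast Finset.mem_range.1 hj
          nlinarith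
  have h4 : (L : ℝ) ^ (b - k) ≤ ∏ j ∈ Finset.Ico k b, ((L : ℝ) * (2 * ((j : ℝ) - k) + 1)) := by
    calc (L : ℝ) ^ (b - k) = ∏ _j ∈ Finset.Ico k b, (L : ℝ) := by simp
      _ ≤ _ := by
        apply Finset.prod_le_prod
        · intro i _; exact hLr.le
        · intro j hj
          have hj' : (k : ℝ) ≤ j := by exact_mod_cast (Finset.mem_Ico.1 hj).1
          nlinarith
  calc (L : ℝ) ^ b = (L : ℝ) ^ k * (L : ℝ) ^ (b - k) := by rw [← pow_add]; congr 1; omega
    _ ≤ (∏ j ∈ Finset.range k, ((L : ℝ) * (2 * ((k : ℝ) - j) - 1)))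
        * ∏ j ∈ Finset.Ico k b, ((L : ℝ) * (2 * ((j : ℝ) - k) + 1)) :=
        mul_le_mul h3 h4 (by positivity) (le_trans (by positivity) h3)
    _ = _ := by rw [← h2]; ring

theorem pz_add_C_splits (L : ℤ) (hL : 0 < L) (b : ℕ) (hb : 1 ≤ b) (r : ℝ) (hr : |r| < (L : ℝ) ^ b) :
    ((pz L b).map (Int.castRingHom ℝ) + C r).Splits := by
  have hLr : (0 : ℝ) < L := by exact_mod_cast hL
  have hmon : ((pz L b).map (Int.castRingHom ℝ)).Monic := (pz_monic L b).map _
  have hdeg0 : ((pz L b).map (Int.castRingHom ℝ)).natDegree = b := by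
    rw [(pz_monic L b).natDegree_map, pz_natDegree]
  have hdeg : ((pz L b).map (Int.castRingHom ℝ) + C r).natDegree = b := by
    rw [natDegree_add_C, hdeg0]
  have hne : ((pz L b).map (Int.castRingHom ℝ) + C r) ≠ 0 := by
    intro h
    rw [h, natDegree_zero] at hdeg
    omega
  apply splits_of_alternate b _ hdeg hne (fun k => (2 * k - 1) * L)
  · intro k l hkl
    have : (k : ℝ) < l := by exact_mod_cast hkl
    simp only
    nlinarith
  · intro k hk
    have h1 := pz_eval L hL b k hk.le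
    have h2 := pz_eval L hL b (k + 1) hk
    have hs : ((-1 : ℝ)) ^ (b - k) = - (-1) ^ (b - (k + 1)) := by
      have : b - k = (b - (k + 1)) + 1 := by omega
      rw [this, pow_succ]; ring
    simp only [eval_add, eval_C]
    set u := ((pz L b).map (Int.castRingHom ℝ)).eval ((2 * (k : ℝ) - 1) * L) with hu
    set v := ((pz L b).map (Int.castRingHom ℝ)).eval ((2 * ((k + 1 : ℕ) : ℝ) - 1) * L) with hv
    rw [hs] at h1
    have hr' := abs_lt.1 hr
    rcases neg_one_pow_eq_or ℝ (b - (k + 1)) with h | h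
    · rw [h] at h1 h2
      have a1 : u + r < 0 := by linarith
      have a2 : 0 < v + r := by linarith
      exact mul_neg_of_neg_of_pos a1 a2
    · rw [h] at h1 h2
      have a1 : 0 < u + r := by linarith
      have a2 : v + r < 0 := by linarith
      exact mul_neg_of_pos_of_neg a1 a2

/-- The outer polynomial `∏_{i<a} (X - 4 i) + 2`. -/
noncomputable def qz (a : ℕ) : ℤ[X] := pz 2 a + C 2

/-- The inner polynomial `∏_{j<b} (X - 8 a j)`. -/
noncomputable def hz (a b : ℕ) : ℤ[X] := pz (4 * a) b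

/-- The polynomial `Q ∘ h` of degree `a b`. -/
noncomputable def fz (a b : ℕ) : ℤ[X] := (qz a).comp (hz a b)

theorem qz_natDegree (a : ℕ) : (qz a).natDegree = a := by
  unfold qz; rw [natDegree_add_C, pz_natDegree]

theorem qz_monic (a : ℕ) (ha : 1 ≤ a) : (qz a).Monic := by
  unfold qz
  apply (pz_monic 2 a).add_of_left
  calc degree (C (2 : ℤ)) ≤ 0 := degree_C_le
    _ < degree (pz 2 a) := by
      rw [degree_eq_natDegree (pz_monic 2 a).ne_zero, pz_natDegree]
      exact_mod_cast ha

theorem fz_monic (a b : ℕ) (ha : 1 ≤ a) (hb : 1 ≤ b) : (fz a b).Monic := by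
  apply (qz_monic a ha).comp (pz_monic _ b)
  rw [pz_natDegree]; omega

theorem fz_natDegree (a b : ℕ) : (fz a b).natDegree = a * b := by
  unfold fz hz
  rw [natDegree_comp, qz_natDegree, pz_natDegree]

theorem pz_map_two (L : ℤ) (b : ℕ) : (pz L b).map (Int.castRingHom (ZMod 2)) = X ^ b := by
  unfold pz
  rw [Polynomial.map_prod]
  have h2 : (2 : ZMod 2) = 0 := rfl
  have : ∀ j ∈ Finset.range b,
      (X - C (2 * L * (j : ℤ)) : ℤ[X]).map (Int.castRingHom (ZMod 2)) = X := by
    intro j _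
    rw [Polynomial.map_sub, Polynomial.map_X, Polynomial.map_C, Int.coe_castRingHom]
    push_cast
    rw [h2, zero_mul, zero_mul, C_0, sub_zero]
  rw [Finset.prod_congr rfl this]
  simp

theorem fz_map_two (a b : ℕ) : (fz a b).map (Int.castRingHom (ZMod 2)) = X ^ (a * b) := by
  have h2 : (2 : ZMod 2) = 0 := rfl
  unfold fz qz hz
  rw [Polynomial.map_comp, Polynomial.map_add, pz_map_two, pz_map_two, Polynomial.map_C,
    Int.coe_castRingHom]
  push_cast
  rw [h2, C_0, add_zero, pow_comp, X_comp, ← pow_mul, mul_comm]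

theorem pz_eval_zero (L : ℤ) (b : ℕ) (hb : 1 ≤ b) : (pz L b).eval 0 = 0 := by
  unfold pz
  rw [eval_prod]
  apply Finset.prod_eq_zero (Finset.mem_range.2 hb)
  simp

theorem fz_eval_zero (a b : ℕ) (ha : 1 ≤ a) (hb : 1 ≤ b) : (fz a b).eval 0 = 2 := by
  unfold fz hz qz
  rw [eval_comp, pz_eval_zero _ b hb, eval_add, pz_eval_zero _ a ha]
  simp

theorem irreducible_of_two (f : ℤ[X]) (n : ℕ) (hn : 1 ≤ n) (hm : f.Monic) (hd : f.natDegree = n)
    (h2 : f.map (Int.castRingHom (ZMod 2)) = X ^ n) (h0 : f.eval 0 = 2) : Irreducible f := by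
  have hprime : (Ideal.span {(2 : ℤ)}).IsPrime := by
    rw [Ideal.span_singleton_prime (by norm_num)]
    exact Int.prime_two
  apply IsEisensteinAt.irreducible (𝓟 := Ideal.span {(2 : ℤ)}) _ hprime hm.isPrimitive (by omega)
  refine ⟨?_, ?_, ?_⟩
  · rw [hm.leadingCoeff, Ideal.mem_span_singleton]
    norm_num
  · intro k hk
    rw [Ideal.mem_span_singleton]
    have : (f.map (Int.castRingHom (ZMod 2))).coeff k = 0 := by
      rw [h2, coeff_X_pow, if_neg (by omega)]
    rw [coeff_map, eq_intCast] at this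
    exact (ZMod.intCast_zmod_eq_zero_iff_dvd (f.coeff k) 2).1 this
  · rw [coeff_zero_eq_eval_zero, h0, Ideal.span_singleton_pow, Ideal.mem_span_singleton]
    norm_num

theorem fz_irreducible (a b : ℕ) (ha : 1 ≤ a) (hb : 1 ≤ b) : Irreducible (fz a b) :=
  irreducible_of_two _ (a * b) (Nat.mul_pos ha hb) (fz_monic a b ha hb) (fz_natDegree a b)
    (fz_map_two a b) (fz_eval_zero a b ha hb)

theorem qz_splits (a : ℕ) (ha : 2 ≤ a) : ((qz a).map (Int.castRingHom ℝ)).Splits := by
  unfold qz
  rw [Polynomial.map_add, Polynomial.map_C]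
  have h := pz_add_C_splits 2 (by norm_num) a (by omega) 2 (by
    rw [abs_of_pos (by norm_num)]
    calc (2 : ℝ) < 2 ^ 2 := by norm_num
      _ ≤ ((2 : ℤ) : ℝ) ^ a := by
        push_cast
        exact pow_le_pow_right₀ (by norm_num) ha)
  simpa using h

/-- Crude bound for the roots of `Q`. -/
theorem qz_root_bound (a : ℕ) (ha : 2 ≤ a) (y : ℝ)
    (hy : ((qz a).map (Int.castRingHom ℝ)).eval y = 0) : |y| < 4 * a := by
  have e : ((qz a).map (Int.castRingHom ℝ)).eval y = (∏ j ∈ Finset.range a, (y - 4 * j)) + 2 := by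
    unfold qz pz
    rw [Polynomial.map_add, Polynomial.map_prod, eval_add, eval_prod]
    simp only [Polynomial.map_C, eval_C, Int.coe_castRingHom, Polynomial.map_sub, Polynomial.map_X,
      eval_sub, eval_X, Int.cast_mul, Int.cast_ofNat, Int.cast_natCast]
    congr 1
    apply Finset.prod_congr rfl
    intro j _
    ring
  rw [e] at hy
  have har : (2 : ℝ) ≤ a := by exact_mod_cast ha
  by_contra hcon
  push Not at hcon
  have hbig : ∀ j ∈ Finset.range a, (2 : ℝ) ≤ |y - 4 * j| := by
    intro j hj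
    have hj' : (j : ℝ) + 1 ≤ a := by exact_mod_cast Finset.mem_range.1 hj
    have hj0 : (0 : ℝ) ≤ j := by positivity
    rcases le_abs.1 hcon with h | h
    · rw [abs_of_nonneg (by linarith)]; linarith
    · rw [abs_of_nonpos (by linarith)]; linarith
  have hprod : (4 : ℝ) ≤ |∏ j ∈ Finset.range a, (y - 4 * j)| := by
    rw [Finset.abs_prod]
    calc (4 : ℝ) = 2 ^ 2 := by norm_num
      _ ≤ 2 ^ a := pow_le_pow_right₀ (by norm_num) ha
      _ = ∏ _j ∈ Finset.range a, (2 : ℝ) := by simp
      _ ≤ _ := Finset.prod_le_prod (fun _ _ => by norm_num) hbig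
  have : ∏ j ∈ Finset.range a, (y - 4 * j) = -2 := by linarith
  rw [this] at hprod
  norm_num at hprod

theorem hz_sub_splits (a b : ℕ) (ha : 2 ≤ a) (hb : 1 ≤ b) (y : ℝ)
    (hy : ((qz a).map (Int.castRingHom ℝ)).eval y = 0) :
    ((hz a b).map (Int.castRingHom ℝ) - C y).Splits := by
  have hL : (0 : ℤ) < 4 * a := by positivity
  have h := pz_add_C_splits (4 * a) hL b hb (-y) (by
    rw [abs_neg]
    have h1 := qz_root_bound a ha y hy
    have har : (2 : ℝ) ≤ a := by exact_mod_cast ha
    calc |y| < 4 * a := h1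
      _ = (4 * (a : ℝ)) ^ 1 := (pow_one _).symm
      _ ≤ (4 * (a : ℝ)) ^ b := pow_le_pow_right₀ (by linarith) hb
      _ = (((4 * a : ℕ) : ℤ) : ℝ) ^ b := by push_cast; ring)
  have e : (hz a b).map (Int.castRingHom ℝ) - C y = (pz (4 * a) b).map (Int.castRingHom ℝ) + C (-y) := by
    unfold hz
    rw [C_neg, sub_eq_add_neg]
  rw [e]
  exact_mod_cast h

theorem fz_splits (a b : ℕ) (ha : 2 ≤ a) (hb : 1 ≤ b) :
    ((fz a b).map (Int.castRingHom ℝ)).Splits := by
  have hq := qz_splits a ha
  have hqm : ((qz a).map (Int.castRingHom ℝ)).Monic := (qz_monic a (by omega)).map _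
  unfold fz
  rw [Polynomial.map_comp, hq.eq_prod_roots_of_monic hqm, Polynomial.multiset_prod_comp]
  apply Splits.multisetProd
  intro p hp
  simp only [Multiset.mem_map] at hp
  obtain ⟨q, ⟨y, hy, rfl⟩, rfl⟩ := hp
  rw [sub_comp, X_comp, C_comp]
  exact hz_sub_splits a b ha hb y ((mem_roots hqm.ne_zero).1 hy)

/-- Two roots of `f` with different values of `h`. -/
theorem exists_two_roots (a b : ℕ) (ha : 2 ≤ a) (hb : 1 ≤ b) :
    ∃ x y : ℝ, ((fz a b).map (Int.castRingHom ℝ)).eval x = 0 ∧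
      ((fz a b).map (Int.castRingHom ℝ)).eval y = 0 ∧
      ((hz a b).map (Int.castRingHom ℝ)).eval x ≠ ((hz a b).map (Int.castRingHom ℝ)).eval y := by
  have hq := qz_splits a ha
  have hqm : ((qz a).map (Int.castRingHom ℝ)).Monic := (qz_monic a (by omega)).map _
  -- separability of `Q`
  have hirr : Irreducible (qz a) := by
    apply irreducible_of_two _ a (by omega) (qz_monic a (by omega)) (qz_natDegree a)
    · unfold qz
      have h2 : (2 : ZMod 2) = 0 := rfl
      rw [Polynomial.map_add, pz_map_two, Polynomial.map_C, Int.coe_castRingHom]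
      push_cast
      rw [h2, C_0, add_zero]
    · unfold qz
      rw [eval_add, pz_eval_zero _ a (by omega)]
      simp
  have hirrQ : Irreducible ((qz a).map (Int.castRingHom ℚ)) :=
    ((qz_monic a (by omega)).irreducible_iff_irreducible_map_fraction_map (K := ℚ)).1 hirr
  have hsep : ((qz a).map (Int.castRingHom ℝ)).Separable := by
    have h1 : ((qz a).map (Int.castRingHom ℚ)).Separable := hirrQ.separable
    have h2 := h1.map (f := algebraMap ℚ ℝ)
    rw [Polynomial.map_map] at h2
    have e : (algebraMap ℚ ℝ).comp (Int.castRingHom ℚ) = Int.castRingHom ℝ := RingHom.ext_int _ _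
    rw [e] at h2
    exact h2
  have hnd := nodup_roots hsep
  have hcard : ((qz a).map (Int.castRingHom ℝ)).roots.card = a := by
    rw [splits_iff_card_roots.1 hq, (qz_monic a (by omega)).natDegree_map, qz_natDegree]
  have h2 : 1 < ((qz a).map (Int.castRingHom ℝ)).roots.toFinset.card := by
    rw [Multiset.toFinset_card_of_nodup hnd, hcard]; omega
  obtain ⟨y1, hy1, y2, hy2, hne⟩ := Finset.one_lt_card.1 h2
  have key : ∀ y ∈ ((qz a).map (Int.castRingHom ℝ)).roots.toFinset, ∃ x : ℝ,
      ((fz a b).map (Int.castRingHom ℝ)).eval x = 0 ∧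
      ((hz a b).map (Int.castRingHom ℝ)).eval x = y := by
    intro y hy
    have hy' : ((qz a).map (Int.castRingHom ℝ)).eval y = 0 := by
      rw [Multiset.mem_toFinset] at hy
      exact (mem_roots hqm.ne_zero).1 hy
    have hs := hz_sub_splits a b ha hb y hy'
    have hdeg : ((hz a b).map (Int.castRingHom ℝ) - C y).natDegree = b := by
      rw [natDegree_sub_C]
      unfold hz
      rw [(pz_monic _ b).natDegree_map, pz_natDegree]
    have hcard : ((hz a b).map (Int.castRingHom ℝ) - C y).roots.card = b := by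
      rw [splits_iff_card_roots.1 hs, hdeg]
    have hpos : 0 < ((hz a b).map (Int.castRingHom ℝ) - C y).roots.card := by omega
    obtain ⟨x, hx⟩ := Multiset.card_pos_iff_exists_mem.1 hpos
    have hx0 := isRoot_of_mem_roots hx
    have hx1 : ((hz a b).map (Int.castRingHom ℝ)).eval x = y := by
      have : ((hz a b).map (Int.castRingHom ℝ) - C y).eval x = 0 := hx0
      rw [eval_sub, eval_C] at this
      linarith
    refine ⟨x, ?_, hx1⟩
    unfold fz
    rw [Polynomial.map_comp, eval_comp, hx1, hy']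
  obtain ⟨x1, h11, h12⟩ := key y1 hy1
  obtain ⟨x2, h21, h22⟩ := key y2 hy2
  exact ⟨x1, x2, h11, h21, by rw [h12, h22]; exact hne⟩

end Vale.Agent.TorusPackets
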