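import Mathlib
import Vale.Agent.TorusPackets.Poly

/-! # Totally real fields of composite degree with a proper subfield -/

namespace Vale.Agent.TorusPackets

open Polynomial

theorem eval₂_map_int {A : Type} [CommRing A] [Algebra ℚ A] (p : ℤ[X]) (x : A) :
    eval₂ (algebraMap ℚ A) x (p.map (Int.castRingHom ℚ)) = aeval x p := by
  rw [eval₂_map, aeval_def]
  congr 1
  exact RingHom.ext_int _ _

theorem exists_field (a b : ℕ) (ha : 2 ≤ a) (hb : 2 ≤ b) :
    ∃ (K : Type) (_ : Field K) (_ : NumberField K) (σ : Fin (a * b) ≃ (K →+* ℝ)) (δ : K),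
      Module.finrank ℚ K = a * b ∧ IsIntegral ℤ δ ∧ (∃ i j, σ i δ ≠ σ j δ) ∧
      Subalgebra.toSubmodule (Algebra.adjoin ℚ {δ}) < ⊤ := by
  have hirrZ := fz_irreducible a b (by omega) (by omega)
  have hmonZ := fz_monic a b (by omega) (by omega)
  set F : ℚ[X] := (fz a b).map (Int.castRingHom ℚ) with hF
  have hirr : Irreducible F :=
    (hmonZ.irreducible_iff_irreducible_map_fraction_map (K := ℚ)).1 hirrZ
  have hmon : F.Monic := hmonZ.map _
  have hdeg : F.natDegree = a * b := by rw [hF, hmonZ.natDegree_map, fz_natDegree]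
  have hFR : F.map (algebraMap ℚ ℝ) = (fz a b).map (Int.castRingHom ℝ) := by
    rw [hF, Polynomial.map_map]
    congr 1
  have : Fact (Irreducible F) := ⟨hirr⟩
  have hfin : Module.Finite ℚ (AdjoinRoot F) := hmon.finite_adjoinRoot
  have hnf : NumberField (AdjoinRoot F) := { to_charZero := inferInstance, to_finiteDimensional := hfin }
  have hfr : Module.finrank ℚ (AdjoinRoot F) = a * b := by
    rw [(AdjoinRoot.powerBasis hmon.ne_zero).finrank, AdjoinRoot.powerBasis_dim, hdeg]
  have hcard : Fintype.card (F.rootSet ℝ) = a * b := by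
    rw [card_rootSet_eq_natDegree hirr.separable, hdeg]
    rw [hFR]
    exact fz_splits a b ha (by omega)
  -- embeddings
  let e1 : (AdjoinRoot F →+* ℝ) ≃ (AdjoinRoot F →ₐ[ℚ] ℝ) := RingHom.equivRatAlgHom _ _
  let e2 : (AdjoinRoot F →ₐ[ℚ] ℝ) ≃ {x // x ∈ F.aroots ℝ} := AdjoinRoot.equiv ℝ ℚ F hmon.ne_zero
  let e3 : {x // x ∈ F.aroots ℝ} ≃ F.rootSet ℝ :=
    Equiv.subtypeEquivRight fun x => by simp [rootSet_def]
  let _ : Fintype (AdjoinRoot F →+* ℝ) := Fintype.ofEquiv _ (e1.trans (e2.trans e3)).symm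
  have hcard2 : Fintype.card (AdjoinRoot F →+* ℝ) = a * b := by
    rw [Fintype.card_congr (e1.trans (e2.trans e3)), hcard]
  let σ : Fin (a * b) ≃ (AdjoinRoot F →+* ℝ) := (Fintype.equivFinOfCardEq hcard2).symm
  let δ : AdjoinRoot F := aeval (AdjoinRoot.root F) (hz a b)
  have hroot0 : aeval (AdjoinRoot.root F) (fz a b) = 0 :=
    (eval₂_map_int (fz a b) (AdjoinRoot.root F)).symm.trans (AdjoinRoot.eval₂_root F)
  have hrootint : IsIntegral ℤ (AdjoinRoot.root F) := ⟨fz a b, hmonZ, hroot0⟩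
  have hδint : IsIntegral ℤ δ := by
    have h1 : δ ∈ Algebra.adjoin ℤ {AdjoinRoot.root F} := aeval_mem_adjoin_singleton ℤ _
    have h2 : Algebra.adjoin ℤ {AdjoinRoot.root F} ≤ integralClosure ℤ (AdjoinRoot F) := by
      rw [Algebra.adjoin_le_iff]
      rintro x rfl
      exact hrootint
    exact h2 h1
  have hσδ : ∀ x : ℝ, ((fz a b).map (Int.castRingHom ℝ)).eval x = 0 →
      ∃ i, σ i δ = ((hz a b).map (Int.castRingHom ℝ)).eval x := by
    intro x hx
    have hx' : F.eval₂ (algebraMap ℚ ℝ) x = 0 := by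
      rw [eval₂_eq_eval_map, hFR]; exact hx
    let φ : AdjoinRoot F →+* ℝ := AdjoinRoot.lift (algebraMap ℚ ℝ) x hx'
    refine ⟨σ.symm φ, ?_⟩
    rw [Equiv.apply_symm_apply]
    change φ (aeval (AdjoinRoot.root F) (hz a b)) = _
    rw [aeval_def, hom_eval₂, eval_map]
    have h3 : φ (AdjoinRoot.root F) = x := AdjoinRoot.lift_root hx'
    rw [h3]
    congr 1
    exact RingHom.ext_int _ _
  have hadj : Subalgebra.toSubmodule (Algebra.adjoin ℚ {δ}) < ⊤ := by
    rw [lt_top_iff_ne_top]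
    intro htop
    have hQδ : aeval δ ((qz a).map (Int.castRingHom ℚ)) = 0 := by
      have h1 : aeval (AdjoinRoot.root F) ((qz a).comp (hz a b)) = 0 := hroot0
      rw [aeval_comp] at h1
      rw [aeval_def, eval₂_map_int]
      exact h1
    have hqm : ((qz a).map (Int.castRingHom ℚ)).Monic := (qz_monic a (by omega)).map _
    have hle : (minpoly ℚ δ).natDegree ≤ a := by
      have h1 := minpoly.min ℚ δ hqm hQδ
      have h2 := natDegree_le_natDegree h1
      rwa [(qz_monic a (by omega)).natDegree_map, qz_natDegree] at h2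
    have hδQ : IsIntegral ℚ δ := IsIntegral.of_finite ℚ δ
    have h1 : IntermediateField.toSubalgebra (IntermediateField.adjoin ℚ {δ}) = Algebra.adjoin ℚ {δ} :=
      IntermediateField.adjoin_simple_toSubalgebra_of_isAlgebraic hδQ.isAlgebraic
    have h2 := IntermediateField.adjoin.finrank hδQ
    have h3 : IntermediateField.adjoin ℚ {δ} = ⊤ := by
      have h4 : Algebra.adjoin ℚ {δ} = ⊤ := Algebra.toSubmodule_eq_top.1 htop
      rw [h4] at h1
      exact IntermediateField.toSubalgebra_injective (by rw [h1]; rfl)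
    rw [h3, IntermediateField.finrank_top', hfr] at h2
    have : a * 2 ≤ a * b := Nat.mul_le_mul_left a hb
    omega
  refine ⟨AdjoinRoot F, inferInstance, hnf, σ, δ, hfr, hδint, ?_, hadj⟩
  obtain ⟨x, y, hx, hy, hne⟩ := exists_two_roots a b ha (by omega)
  obtain ⟨i, hi⟩ := hσδ x hx
  obtain ⟨j, hj⟩ := hσδ y hy
  exact ⟨i, j, by rw [hi, hj]; exact hne⟩

end Vale.Agent.TorusPackets
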