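import Mathlib

/-! # Orders `ℤ[δ] + (i+1) O_K` -/

namespace Vale.Agent.TorusPackets

open Polynomial NumberField

variable {K : Type} [Field K]

theorem adjoin_integral {δ : K} (hδ : IsIntegral ℤ δ) :
    ∀ v ∈ Algebra.adjoin ℤ {δ}, IsIntegral ℤ v := by
  intro v hv
  have h1 : Algebra.adjoin ℤ {δ} ≤ integralClosure ℤ K := by
    rw [Algebra.adjoin_le_iff]
    rintro x rfl
    exact hδ
  exact h1 hv

theorem isIntegral_nat_mul (N : ℕ) {z : K} (hz : IsIntegral ℤ z) : IsIntegral ℤ ((N : K) * z) := by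
  have h : IsIntegral ℤ (algebraMap ℤ K (N : ℤ)) := isIntegral_algebraMap
  have h2 : algebraMap ℤ K (N : ℤ) = (N : K) := by simp
  rw [h2] at h
  exact h.mul hz

/-- The order `ℤ[δ] + N O_K`. -/
def ord (δ : K) (hδ : IsIntegral ℤ δ) (N : ℕ) : Subring K where
  carrier := {x | ∃ u ∈ Algebra.adjoin ℤ {δ}, ∃ z : K, IsIntegral ℤ z ∧ x = u + N * z}
  zero_mem' := ⟨0, Subalgebra.zero_mem _, 0, isIntegral_zero, by simp⟩
  one_mem' := ⟨1, Subalgebra.one_mem _, 0, isIntegral_zero, by simp⟩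
  add_mem' := by
    rintro _ _ ⟨u, hu, z, hz, rfl⟩ ⟨u', hu', z', hz', rfl⟩
    exact ⟨u + u', Subalgebra.add_mem _ hu hu', z + z', hz.add hz', by ring⟩
  neg_mem' := by
    rintro _ ⟨u, hu, z, hz, rfl⟩
    exact ⟨-u, Subalgebra.neg_mem _ hu, -z, hz.neg, by ring⟩
  mul_mem' := by
    rintro _ _ ⟨u, hu, z, hz, rfl⟩ ⟨u', hu', z', hz', rfl⟩
    have hint := adjoin_integral hδ
    refine ⟨u * u', Subalgebra.mul_mem _ hu hu', u * z' + z * u' + N * (z * z'), ?_, by ring⟩
    exact ((((hint u hu).mul hz')).add (hz.mul (hint u' hu'))).add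
      (isIntegral_nat_mul N (hz.mul hz'))

theorem mem_ord_self (δ : K) (hδ : IsIntegral ℤ δ) (N : ℕ) : δ ∈ ord δ hδ N :=
  ⟨δ, Algebra.self_mem_adjoin_singleton ℤ δ, 0, isIntegral_zero, by simp⟩

theorem mem_ord_mul (δ : K) (hδ : IsIntegral ℤ δ) (N : ℕ) {z : K} (hz : IsIntegral ℤ z) :
    (N : K) * z ∈ ord δ hδ N :=
  ⟨0, Subalgebra.zero_mem _, z, hz, by simp⟩

variable [NumberField K]

theorem isOrder_ord (δ : K) (hδ : IsIntegral ℤ δ) (N : ℕ) (hN : N ≠ 0) :
    (∀ x ∈ ord δ hδ N, IsIntegral ℤ x) ∧ Submodule.span ℚ (ord δ hδ N : Set K) = ⊤ := by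
  constructor
  · rintro _ ⟨u, hu, z, hz, rfl⟩
    exact (adjoin_integral hδ u hu).add (isIntegral_nat_mul N hz)
  · rw [eq_top_iff]
    intro x _
    have hx : x ∈ Submodule.span ℚ (Set.range (integralBasis K)) := by
      rw [(integralBasis K).span_eq]; trivial
    refine Submodule.span_induction (p := fun x _ => x ∈ Submodule.span ℚ (ord δ hδ N : Set K))
      ?_ ?_ ?_ ?_ hx
    · rintro _ ⟨i, rfl⟩
      have h1 : IsIntegral ℤ (integralBasis K i) := by
        rw [integralBasis_apply]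
        exact RingOfIntegers.isIntegral_coe _
      have h2 := Submodule.subset_span (R := ℚ) (mem_ord_mul δ hδ N h1)
      have h3 := Submodule.smul_mem _ ((N : ℚ)⁻¹) h2
      have hN' : (N : K) ≠ 0 := by exact_mod_cast hN
      have e : ((N : ℚ)⁻¹) • ((N : K) * integralBasis K i) = integralBasis K i := by
        rw [Algebra.smul_def]
        simp [hN']
      rwa [e] at h3
    · exact Submodule.zero_mem _
    · intro x y _ _ hx hy; exact Submodule.add_mem _ hx hy
    · intro c x _ hx; exact Submodule.smul_mem _ c hx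

theorem index_ne_zero (δ : K) (hδ : IsIntegral ℤ δ) (N : ℕ) (hN : N ≠ 0) :
    ((ord δ hδ N).comap (algebraMap (𝓞 K) K)).toAddSubgroup.index ≠ 0 := by
  let I : Ideal (𝓞 K) := Ideal.span {(N : 𝓞 K)}
  have hI : I ≠ ⊥ := by
    rw [Ne, Ideal.span_singleton_eq_bot]
    exact_mod_cast hN
  have hfin : Finite (𝓞 K ⧸ I) := Ideal.finiteQuotientOfFreeOfNeBot I hI
  have h1 : (Submodule.toAddSubgroup I).index ≠ 0 := by
    have : Finite ((𝓞 K) ⧸ (Submodule.toAddSubgroup I)) := hfin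
    exact AddSubgroup.index_ne_zero_of_finite
  have h2 : Submodule.toAddSubgroup I ≤
      ((ord δ hδ N).comap (algebraMap (𝓞 K) K)).toAddSubgroup := by
    intro x hx
    have hx' : x ∈ I := hx
    obtain ⟨y, rfl⟩ := Ideal.mem_span_singleton'.1 hx'
    change algebraMap (𝓞 K) K (y * (N : 𝓞 K)) ∈ ord δ hδ N
    rw [map_mul, map_natCast, mul_comm]
    exact mem_ord_mul δ hδ N (RingOfIntegers.isIntegral_coe y)
  exact fun h => h1 (Nat.eq_zero_of_zero_dvd (h ▸ AddSubgroup.index_dvd_of_le h2))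

/-- If `ℚ[δ] ≠ K`, the index of `ℤ[δ] + N O_K` grows at least linearly in `N`. -/
theorem exists_index_bound (δ : K) (hδ : IsIntegral ℤ δ)
    (hlt : Subalgebra.toSubmodule (Algebra.adjoin ℚ {δ}) < ⊤) :
    ∃ A : ℕ, ∀ N : ℕ, N ≠ 0 →
      N ≤ ((ord δ hδ N).comap (algebraMap (𝓞 K) K)).toAddSubgroup.index * A := by
  obtain ⟨f, hf0, hf⟩ := Submodule.exists_le_ker_of_lt_top _ hlt
  -- a basis element on which `f` does not vanish
  obtain ⟨i0, hi0⟩ : ∃ i, f (integralBasis K i) ≠ 0 := by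
    by_contra hcon
    push Not at hcon
    exact hf0 ((integralBasis K).ext fun i => by simpa using hcon i)
  -- common denominator
  let D : ℕ := ∏ i, (f (integralBasis K i)).den
  have hD : D ≠ 0 := Finset.prod_ne_zero_iff.2 fun i _ => (f (integralBasis K i)).den_nz
  have hDi : ∀ i, ∃ m : ℤ, (D : ℚ) * f (integralBasis K i) = m := by
    intro i
    obtain ⟨c, hc⟩ : (f (integralBasis K i)).den ∣ D := Finset.dvd_prod_of_mem _ (Finset.mem_univ i)
    refine ⟨c * (f (integralBasis K i)).num, ?_⟩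
    have h1 : ((f (integralBasis K i)).den : ℚ) * f (integralBasis K i)
        = (f (integralBasis K i)).num := Rat.den_mul_eq_num _
    rw [hc]; push_cast
    calc ((f (integralBasis K i)).den : ℚ) * c * f (integralBasis K i)
        = c * (((f (integralBasis K i)).den : ℚ) * f (integralBasis K i)) := by ring
      _ = _ := by rw [h1]
  have hDz : ∀ z : K, IsIntegral ℤ z → ∃ m : ℤ, (D : ℚ) * f z = m := by
    intro z hz
    have hz' : z ∈ (algebraMap (𝓞 K) K).range := ⟨⟨z, hz⟩, rfl⟩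
    rw [← mem_span_integralBasis] at hz'
    refine Submodule.span_induction (p := fun z _ => ∃ m : ℤ, (D : ℚ) * f z = m) ?_ ?_ ?_ ?_ hz'
    · rintro _ ⟨i, rfl⟩; exact hDi i
    · exact ⟨0, by simp⟩
    · rintro x y _ _ ⟨m, hm⟩ ⟨l, hl⟩
      exact ⟨m + l, by rw [map_add, mul_add, hm, hl]; push_cast; rfl⟩
    · rintro c x _ ⟨m, hm⟩
      refine ⟨c * m, ?_⟩
      have : f (c • x) = (c : ℚ) * f x := by
        rw [← zsmul_eq_mul]; exact map_zsmul f c x
      rw [this]; push_cast; rw [← hm]; ring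
  obtain ⟨m0, hm0⟩ := hDi i0
  have hm0' : m0 ≠ 0 := by
    rintro rfl
    rw [Int.cast_zero, mul_eq_zero] at hm0
    rcases hm0 with h | h
    · exact hD (by exact_mod_cast h)
    · exact hi0 h
  refine ⟨m0.natAbs, fun N hN => ?_⟩
  set H := ((ord δ hδ N).comap (algebraMap (𝓞 K) K)).toAddSubgroup with hH
  have hidx : H.index ≠ 0 := index_ne_zero δ hδ N hN
  have hmem : H.index • (RingOfIntegers.basis K i0) ∈ H := H.nsmul_index_mem _
  have hmem' : algebraMap (𝓞 K) K (H.index • (RingOfIntegers.basis K i0)) ∈ ord δ hδ N := hmem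
  obtain ⟨u, hu, z, hz, he⟩ := hmem'
  rw [map_nsmul, ← integralBasis_apply, nsmul_eq_mul] at he
  have hfu : f u = 0 := by
    have h1 : u ∈ Algebra.adjoin ℚ {δ} := by
      have h2 : Algebra.adjoin ℤ {δ} ≤ (Algebra.adjoin ℚ {δ}).restrictScalars ℤ := by
        rw [Algebra.adjoin_le_iff]
        exact Algebra.subset_adjoin
      exact h2 hu
    exact hf h1
  obtain ⟨m1, hm1⟩ := hDz z hz
  have h2 : (H.index : ℚ) * f (integralBasis K i0) = N * f z := by
    have := congrArg f he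
    rw [map_add, hfu, zero_add] at this
    have e1 : ((H.index : ℕ) : K) * integralBasis K i0 = (H.index : ℚ) • integralBasis K i0 := by
      rw [Algebra.smul_def]; simp
    have e2 : ((N : ℕ) : K) * z = (N : ℚ) • z := by
      rw [Algebra.smul_def]; simp
    rw [e1, e2, map_smul, map_smul, smul_eq_mul, smul_eq_mul] at this
    exact this
  have h3 : (H.index : ℤ) * m0 = N * m1 := by
    have : (H.index : ℚ) * m0 = N * m1 := by
      rw [← hm0, ← hm1]
      calc (H.index : ℚ) * ((D : ℚ) * f (integralBasis K i0))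
          = D * ((H.index : ℚ) * f (integralBasis K i0)) := by ring
        _ = D * (N * f z) := by rw [h2]
        _ = _ := by ring
    exact_mod_cast this
  have h4 : N ∣ H.index * m0.natAbs := by
    have : (N : ℤ) ∣ (H.index : ℤ) * m0 := ⟨m1, h3⟩
    have h5 := Int.natAbs_dvd_natAbs.2 this
    rwa [Int.natAbs_mul, Int.natAbs_natCast, Int.natAbs_natCast] at h5
  exact Nat.le_of_dvd (Nat.pos_of_ne_zero (mul_ne_zero hidx (Int.natAbs_ne_zero.2 hm0'))) h4

theorem tendsto_absDisc (δ : K) (hδ : IsIntegral ℤ δ)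
    (hlt : Subalgebra.toSubmodule (Algebra.adjoin ℚ {δ}) < ⊤) :
    Filter.Tendsto (fun i : ℕ => (discr K).natAbs *
      ((ord δ hδ (i + 1)).comap (algebraMap (𝓞 K) K)).toAddSubgroup.index ^ 2)
      Filter.atTop Filter.atTop := by
  obtain ⟨A, hA⟩ := exists_index_bound δ hδ hlt
  rw [Filter.tendsto_atTop_atTop]
  intro c
  refine ⟨c * A, fun i hi => ?_⟩
  have h1 := hA (i + 1) (Nat.succ_ne_zero i)
  set x := ((ord δ hδ (i + 1)).comap (algebraMap (𝓞 K) K)).toAddSubgroup.index with hx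
  have h2 : c < x := by
    by_contra hcon
    push Not at hcon
    have : x * A ≤ c * A := Nat.mul_le_mul_right A hcon
    omega
  have h3 : 1 ≤ (discr K).natAbs := Nat.one_le_iff_ne_zero.2 (Int.natAbs_ne_zero.2 (discr_ne_zero K))
  calc c ≤ x := h2.le
    _ ≤ x ^ 2 := Nat.le_self_pow (by norm_num) x
    _ = 1 * x ^ 2 := (one_mul _).symm
    _ ≤ _ := Nat.mul_le_mul_right _ h3

end Vale.Agent.TorusPackets
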