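import Mathlib
import Vale.Agent.TorusPackets.Defs

/-! # The closed null set of lattices stable under a diagonal matrix -/

namespace Vale.Agent.TorusPackets

open MeasureTheory Filter Topology Matrix

/-- `SL_n(ℝ)`, `n = k + 1`. -/
abbrev SL (k : ℕ) : Type := SpecialLinearGroup (Fin (k + 1)) ℝ

instance (k : ℕ) : BorelSpace (X k) := ⟨rfl⟩

instance secondCountable_SL (k : ℕ) : SecondCountableTopology (SL k) := by
  haveI : SecondCountableTopology (Matrix (Fin (k + 1)) (Fin (k + 1)) ℝ) :=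
    inferInstanceAs (SecondCountableTopology (Fin (k + 1) → Fin (k + 1) → ℝ))
  exact TopologicalSpace.Subtype.secondCountableTopology {A : Matrix (Fin (k + 1)) (Fin (k + 1)) ℝ | A.det = 1}

theorem val_mul_inv {k : ℕ} (g : SL k) : g.1 * (g⁻¹).1 = 1 :=
  congrArg Subtype.val (mul_inv_cancel g)

theorem val_inv_mul {k : ℕ} (g : SL k) : (g⁻¹).1 * g.1 = 1 :=
  congrArg Subtype.val (inv_mul_cancel g)

instance locallyCompact_SL (k : ℕ) : LocallyCompactSpace (SL k) := by
  haveI : LocallyCompactSpace (Matrix (Fin (k + 1)) (Fin (k + 1)) ℝ) :=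
    inferInstanceAs (LocallyCompactSpace (Fin (k + 1) → Fin (k + 1) → ℝ))
  have h : IsClosed {A : Matrix (Fin (k + 1)) (Fin (k + 1)) ℝ | A.det = 1} :=
    isClosed_eq (Continuous.matrix_det continuous_id) continuous_const
  exact h.isClosedEmbedding_subtypeVal.locallyCompactSpace

instance discrete_Gam (k : ℕ) : DiscreteTopology (Gam k) :=
  Matrix.SpecialLinearGroup.discreteSpecialLinearGroupIntRangeSL

instance pd_Gam (k : ℕ) : ProperlyDiscontinuousSMul (Gam k) (SL k) := by
  apply Subgroup.properlyDiscontinuousSMul_of_tendsto_cofinite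
  exact Subgroup.tendsto_coe_cofinite_of_discrete _ ⟨inferInstanceAs (DiscreteTopology (Gam k))⟩

instance t2_X (k : ℕ) : T2Space (X k) :=
  t2Space_of_properlyDiscontinuousSMul_of_t2Space

theorem continuous_proj {k : ℕ} : Continuous (proj : SL k → X k) :=
  continuous_quotient_mk'

theorem isOpenMap_proj {k : ℕ} : IsOpenMap (proj : SL k → X k) :=
  isOpenMap_quotient_mk'_mul

theorem surjective_proj {k : ℕ} : Function.Surjective (proj : SL k → X k) :=
  Quotient.mk_surjective

theorem isQuotientMap_proj {k : ℕ} :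
    IsQuotientMap (proj : SL k → X k) :=
  isQuotientMap_quotient_mk'

theorem isOpenQuotientMap_proj {k : ℕ} :
    IsOpenQuotientMap (proj : SL k → X k) :=
  ⟨surjective_proj, continuous_proj, isOpenMap_proj⟩

instance sc_X (k : ℕ) : SecondCountableTopology (X k) :=
  isQuotientMap_proj.secondCountableTopology isOpenMap_proj

instance lc_X (k : ℕ) : LocallyCompactSpace (X k) :=
  isOpenQuotientMap_proj.locallyCompactSpace

theorem proj_eq_iff {k : ℕ} (g h : SL k) : proj g = proj h ↔ ∃ γ ∈ Gam k, g = γ * h := by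
  constructor
  · intro he
    have h1 : MulAction.orbitRel (Gam k) (SL k) g h := Quotient.exact he
    obtain ⟨γ, hγ⟩ := h1
    exact ⟨γ, γ.2, hγ.symm⟩
  · rintro ⟨γ, hγ, rfl⟩
    exact Quotient.sound ⟨⟨γ, hγ⟩, rfl⟩

theorem act_proj {k : ℕ} (g h : SL k) : act h (proj g) = proj (g * h) := by
  have h1 : proj ((proj g).out) = proj g := Quotient.out_eq _
  obtain ⟨γ, hγ, h2⟩ := (proj_eq_iff _ _).1 h1
  unfold act
  rw [h2, mul_assoc]
  exact (proj_eq_iff _ _).2 ⟨γ, hγ, rfl⟩

theorem continuous_act {k : ℕ} (h : SL k) : Continuous (act h : X k → X k) := by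
  rw [isQuotientMap_proj.continuous_iff]
  have : act h ∘ proj = fun g : SL k => proj (g * h) := by
    funext g; exact act_proj g h
  rw [this]
  exact continuous_proj.comp (continuous_mul_const h)

/-- Real matrices with integer entries. -/
def intSet (k : ℕ) : Set (Matrix (Fin (k + 1)) (Fin (k + 1)) ℝ) := {M | ∀ i j, ∃ z : ℤ, M i j = z}

theorem isClosed_intSet (k : ℕ) : IsClosed (intSet k) := by
  have : intSet k = ⋂ i, ⋂ j, (fun M : Matrix (Fin (k + 1)) (Fin (k + 1)) ℝ => M i j) ⁻¹'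
      (Set.range ((↑) : ℤ → ℝ)) := by
    ext M; simp [intSet, eq_comm]
  rw [this]
  refine isClosed_iInter fun i => isClosed_iInter fun j => ?_
  refine IsClosed.preimage (by fun_prop) ?_
  exact Real.isClosedEmbedding_intCast.isClosed_range

theorem intSet_mul {k : ℕ} {M N : Matrix (Fin (k + 1)) (Fin (k + 1)) ℝ} (hM : M ∈ intSet k) (hN : N ∈ intSet k) :
    M * N ∈ intSet k := by
  intro i j
  choose f hf using hM
  choose g hg using hN
  refine ⟨∑ k, f i k * g k j, ?_⟩
  simp [Matrix.mul_apply, hf, hg]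

/-- `{g : g Δ g⁻¹ ∈ M_n(ℤ)}`. -/
def SG {k : ℕ} (d : Fin (k + 1) → ℝ) : Set (SL k) :=
  {g | g.1 * Matrix.diagonal d * (g⁻¹).1 ∈ intSet k}

theorem continuous_conj {k : ℕ} (D : Matrix (Fin (k + 1)) (Fin (k + 1)) ℝ) :
    Continuous fun g : SL k => g.1 * D * (g⁻¹).1 := by
  have h1 : Continuous fun g : SL k => g.1 := continuous_subtype_val
  have h2 : Continuous fun g : SL k => (g⁻¹).1 :=
    continuous_subtype_val.comp continuous_inv
  exact (h1.matrix_mul continuous_const).matrix_mul h2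

theorem isClosed_SG {k : ℕ} (d : Fin (k + 1) → ℝ) : IsClosed (SG d) :=
  (isClosed_intSet k).preimage (continuous_conj _)

/-- The set of lattices stable under `Δ = diag(d)`. -/
def SX {k : ℕ} (d : Fin (k + 1) → ℝ) : Set (X k) := proj '' SG d

theorem mem_intSet_Gam {k : ℕ} {γ : SL k} (h : γ ∈ Gam k) :
    γ.1 ∈ intSet k := by
  obtain ⟨x, rfl⟩ := h
  intro i j
  exact ⟨x.1 i j, by simp⟩

theorem SG_invariant {k : ℕ} (d : Fin (k + 1) → ℝ) {g γ : SL k}
    (hγ : γ ∈ Gam k) (h : g ∈ SG d) : γ * g ∈ SG d := by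
  change (γ * g).1 * Matrix.diagonal d * ((γ * g)⁻¹).1 ∈ intSet k
  have e : (γ * g).1 * Matrix.diagonal d * ((γ * g)⁻¹).1
      = γ.1 * (g.1 * Matrix.diagonal d * (g⁻¹).1) * (γ⁻¹).1 := by
    rw [_root_.mul_inv_rev]
    change γ.1 * g.1 * Matrix.diagonal d * ((g⁻¹).1 * (γ⁻¹).1) = _
    simp only [Matrix.mul_assoc]
  rw [e]
  exact intSet_mul (intSet_mul (mem_intSet_Gam hγ) h) (mem_intSet_Gam ((Gam k).inv_mem hγ))

theorem proj_mem_SX {k : ℕ} (d : Fin (k + 1) → ℝ) (g : SL k) :
    proj g ∈ SX d ↔ g ∈ SG d := by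
  constructor
  · rintro ⟨g', hg', he⟩
    obtain ⟨γ, hγ, rfl⟩ := (proj_eq_iff _ _).1 he
    have h2 : g = γ⁻¹ * (γ * g) := by group
    rw [h2]
    exact SG_invariant d ((Gam k).inv_mem hγ) hg'
  · intro h; exact ⟨g, h, rfl⟩

theorem isClosed_SX {k : ℕ} (d : Fin (k + 1) → ℝ) : IsClosed (SX d) := by
  rw [← isQuotientMap_proj.isClosed_preimage]
  have : proj ⁻¹' (SX d) = SG d := by
    ext g; exact proj_mem_SX d g
  rw [this]; exact isClosed_SG d

/-- The lattice `ℤ^n g`. -/
def rowLattice {k : ℕ} (g : SL k) : Set (Fin (k + 1) → ℝ) :=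
  {v | ∃ z : Fin (k + 1) → ℤ, v = (fun i => (z i : ℝ)) ᵥ* g.1}

theorem mem_SG_of_stable {k : ℕ} (d : Fin (k + 1) → ℝ) (g : SL k)
    (h : ∀ v ∈ rowLattice g, (fun j => v j * d j) ∈ rowLattice g) : g ∈ SG d := by
  have h1 : ∀ i, ∃ z : Fin (k + 1) → ℤ, (fun j => g.1 i j * d j) = (fun k => (z k : ℝ)) ᵥ* g.1 := by
    intro i
    apply h
    refine ⟨Pi.single i 1, ?_⟩
    funext j
    simp [Matrix.vecMul, dotProduct, Pi.single_apply]
  choose z hz using h1
  have h2 : g.1 * Matrix.diagonal d = (Matrix.of fun i k => (z i k : ℝ)) * g.1 := by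
    ext i j
    rw [Matrix.mul_diagonal]
    have := congrFun (hz i) j
    simp only [Matrix.vecMul, dotProduct] at this
    rw [this, Matrix.mul_apply]
    simp
  change g.1 * Matrix.diagonal d * (g⁻¹).1 ∈ intSet k
  rw [h2, Matrix.mul_assoc]
  have h3 : g.1 * (g⁻¹).1 = 1 := val_mul_inv g
  rw [h3, Matrix.mul_one]
  intro i j
  exact ⟨z i j, by simp⟩

theorem SG_mul_diag {k : ℕ} (d : Fin (k + 1) → ℝ) {g a : SL k}
    (e : Fin (k + 1) → ℝ) (ha : a.1 = Matrix.diagonal e) (h : g ∈ SG d) : g * a ∈ SG d := by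
  change (g * a).1 * Matrix.diagonal d * ((g * a)⁻¹).1 ∈ intSet k
  have h3 : a.1 * (a⁻¹).1 = 1 := val_mul_inv a
  have hc : a.1 * Matrix.diagonal d = Matrix.diagonal d * a.1 := by
    rw [ha, Matrix.diagonal_mul_diagonal, Matrix.diagonal_mul_diagonal]
    congr 1; funext i; ring
  have e : (g * a).1 * Matrix.diagonal d * ((g * a)⁻¹).1 = g.1 * Matrix.diagonal d * (g⁻¹).1 := by
    rw [_root_.mul_inv_rev]
    change g.1 * a.1 * Matrix.diagonal d * ((a⁻¹).1 * (g⁻¹).1) = _
    calc g.1 * a.1 * Matrix.diagonal d * ((a⁻¹).1 * (g⁻¹).1)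
        = g.1 * (a.1 * Matrix.diagonal d) * ((a⁻¹).1 * (g⁻¹).1) := by simp only [Matrix.mul_assoc]
      _ = g.1 * (Matrix.diagonal d * a.1) * ((a⁻¹).1 * (g⁻¹).1) := by rw [hc]
      _ = g.1 * Matrix.diagonal d * (a.1 * (a⁻¹).1) * (g⁻¹).1 := by simp only [Matrix.mul_assoc]
      _ = _ := by rw [h3, Matrix.mul_one]
  rw [e]; exact h

theorem orbit_subset_SX {k : ℕ} (d : Fin (k + 1) → ℝ) {g : SL k} (hg : g ∈ SG d) :
    orbitA (proj g) ⊆ SX d := by
  rintro _ ⟨u, rfl⟩
  exact ⟨g * diagA u, SG_mul_diag d _ rfl hg, (act_proj _ _).symm⟩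

/-! ### Nullness -/

/-- The unipotent `1 + t E_{ij}`. -/
def unip {k : ℕ} (i j : Fin (k + 1)) (hij : i ≠ j) (t : ℝ) : SL k :=
  ⟨Matrix.transvection i j t, Matrix.det_transvection_of_ne i j hij t⟩

theorem unip_conj {k : ℕ} (i j : Fin (k + 1)) (hij : i ≠ j) (t : ℝ) (d : Fin (k + 1) → ℝ) :
    (unip i j hij t).1 * Matrix.diagonal d * ((unip i j hij t)⁻¹).1
      = Matrix.diagonal d + (t * (d j - d i)) • Matrix.single i j (1 : ℝ) := by
  have hinv : ((unip i j hij t)⁻¹).1 = Matrix.transvection i j (-t) := by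
    have h1 : unip i j hij t * unip i j hij (-t) = 1 := by
      apply Subtype.ext
      change Matrix.transvection i j t * Matrix.transvection i j (-t) = 1
      rw [Matrix.transvection_mul_transvection_same i j hij]; simp
    rw [inv_eq_of_mul_eq_one_right h1]; rfl
  rw [hinv]
  change Matrix.transvection i j t * Matrix.diagonal d * Matrix.transvection i j (-t) = _
  simp only [Matrix.transvection]
  ext a b
  simp only [Matrix.add_mul, Matrix.mul_add, Matrix.one_mul, Matrix.mul_one, Matrix.add_apply,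
    Matrix.smul_apply, Matrix.mul_diagonal, Matrix.diagonal_apply, Matrix.single_apply,
    smul_eq_mul]
  simp only [Matrix.mul_apply, Matrix.single_apply, Matrix.diagonal_apply, Matrix.mul_diagonal]
  by_cases h1 : i = a
  · subst h1
    by_cases h2 : j = b
    · subst h2
      simp [hij, hij.symm, Finset.sum_ite_eq, Finset.sum_ite_eq']
      ring
    · simp [h2, hij, hij.symm, Ne.symm hij]
  · have h1' : ¬ a = i := fun h => h1 h.symm
    simp only [h1, h1', false_and, if_false, zero_mul, Finset.sum_const_zero, add_zero, mul_zero,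
      ite_self, and_false]
    have : ∑ x, (if a = x then d a else 0) * (if i = x ∧ j = b then -t else 0) = 0 := by
      apply Finset.sum_eq_zero
      intro x _
      by_cases hx : i = x
      · subst hx; simp [h1']
      · simp [hx]
    rw [this, add_zero]

theorem countable_hits (x y : ℝ) (hy : y ≠ 0) :
    {k : ℕ | ∃ z : ℤ, x + (1 / ((k : ℝ) + 1)) * y = z}.Finite := by
  obtain ⟨N, hN⟩ := exists_nat_gt (2 * |y|)
  by_contra hinf
  have hinf : {k : ℕ | ∃ z : ℤ, x + (1 / ((k : ℝ) + 1)) * y = z}.Infinite := hinf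
  obtain ⟨k, hk, hkN⟩ := hinf.exists_gt N
  obtain ⟨l, hl, hlk⟩ := hinf.exists_gt k
  obtain ⟨z1, hz1⟩ := hk
  obtain ⟨z2, hz2⟩ := hl
  have hk0 : (0 : ℝ) < (k : ℝ) + 1 := by positivity
  have hl0 : (0 : ℝ) < (l : ℝ) + 1 := by positivity
  have hdiff : (1 / ((k : ℝ) + 1) - 1 / ((l : ℝ) + 1)) * y = ((z1 - z2 : ℤ) : ℝ) := by
    push_cast; rw [← hz1, ← hz2]; ring
  have hkl : (k : ℝ) < l := by exact_mod_cast hlk
  have hpos : 0 < 1 / ((k : ℝ) + 1) - 1 / ((l : ℝ) + 1) := by
    have : 1 / ((l : ℝ) + 1) < 1 / ((k : ℝ) + 1) := one_div_lt_one_div_of_lt hk0 (by linarith)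
    linarith
  have hlt : 1 / ((k : ℝ) + 1) - 1 / ((l : ℝ) + 1) < 1 / ((k : ℝ) + 1) := by
    have : 0 < 1 / ((l : ℝ) + 1) := by positivity
    linarith
  have hkN' : (N : ℝ) < k := by exact_mod_cast hkN
  have hsmall : |(1 / ((k : ℝ) + 1) - 1 / ((l : ℝ) + 1)) * y| < 1 := by
    rw [abs_mul, abs_of_pos hpos]
    have h1 : (1 / ((k : ℝ) + 1)) * |y| < 1 := by
      rw [div_mul_eq_mul_div, one_mul, div_lt_one hk0]
      have := abs_nonneg y
      linarith
    have := abs_nonneg y
    nlinarith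
  rw [hdiff] at hsmall
  have hz : z1 - z2 = 0 := by
    have : |z1 - z2| < 1 := by exact_mod_cast hsmall
    exact Int.abs_lt_one_iff.mp this
  rw [hz] at hdiff
  simp only [Int.cast_zero, mul_eq_zero] at hdiff
  rcases hdiff with h | h
  · exact hpos.ne' h
  · exact hy h

theorem measure_SX_eq_zero {k : ℕ} (d : Fin (k + 1) → ℝ) (i j : Fin (k + 1)) (hij : d i ≠ d j)
    (m : Measure (X k)) (hm : IsInvariantProb m) : m (SX d) = 0 := by
  haveI := hm.1
  have hne : i ≠ j := fun h => hij (by rw [h])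
  let h : ℕ → SL k := fun k => unip i j hne (1 / ((k : ℝ) + 1))
  let S : ℕ → Set (X k) := fun k => (act (h k)) ⁻¹' (SX d)
  have hSm : ∀ k, MeasurableSet (S k) := fun k =>
    ((isClosed_SX d).preimage (continuous_act (h k))).measurableSet
  have hS : ∀ k, m (S k) = m (SX d) := by
    intro k
    have h1 := hm.2 (h k)
    calc m (S k) = Measure.map (act (h k)) m (SX d) :=
          (Measure.map_apply (continuous_act (h k)).measurable (isClosed_SX d).measurableSet).symm
      _ = m (SX d) := by rw [h1]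
  have hfin : ∀ p : X k, {k | p ∈ S k}.Finite := by
    intro p
    obtain ⟨g, rfl⟩ := surjective_proj p
    have hEne : (g.1 * Matrix.single i j (1 : ℝ) * (g⁻¹).1) ≠ 0 := by
      intro h0
      have h3 : (g⁻¹).1 * g.1 = 1 := val_inv_mul g
      have h4 : Matrix.single i j (1 : ℝ) = 0 := by
        calc Matrix.single i j (1 : ℝ) = ((g⁻¹).1 * g.1) * Matrix.single i j (1 : ℝ) * ((g⁻¹).1 * g.1) := by
              rw [h3]; simp
          _ = (g⁻¹).1 * (g.1 * Matrix.single i j (1 : ℝ) * (g⁻¹).1) * g.1 := by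
              simp only [Matrix.mul_assoc]
          _ = 0 := by rw [h0]; simp
      have := congrFun (congrFun h4 i) j
      simp at this
    obtain ⟨a, b, hab⟩ : ∃ a b, (g.1 * Matrix.single i j (1 : ℝ) * (g⁻¹).1) a b ≠ 0 := by
      by_contra hcon
      push Not at hcon
      exact hEne (by ext a b; simpa using hcon a b)
    refine Set.Finite.subset (countable_hits ((g.1 * Matrix.diagonal d * (g⁻¹).1) a b)
      ((d j - d i) * (g.1 * Matrix.single i j (1 : ℝ) * (g⁻¹).1) a b)
      (mul_ne_zero (sub_ne_zero.mpr hij.symm) hab)) ?_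
    intro k hk
    have hk' : g * h k ∈ SG d := by
      have : act (h k) (proj g) ∈ SX d := hk
      rw [act_proj] at this
      exact (proj_mem_SX d _).1 this
    obtain ⟨z, hz⟩ := hk' a b
    refine ⟨z, ?_⟩
    rw [← hz]
    have e : (g * h k).1 * Matrix.diagonal d * ((g * h k)⁻¹).1
        = g.1 * Matrix.diagonal d * (g⁻¹).1
          + ((1 / ((k : ℝ) + 1)) * (d j - d i)) • (g.1 * Matrix.single i j (1 : ℝ) * (g⁻¹).1) := by
      rw [_root_.mul_inv_rev]
      change g.1 * (h k).1 * Matrix.diagonal d * (((h k)⁻¹).1 * (g⁻¹).1) = _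
      calc g.1 * (h k).1 * Matrix.diagonal d * (((h k)⁻¹).1 * (g⁻¹).1)
          = g.1 * ((h k).1 * Matrix.diagonal d * ((h k)⁻¹).1) * (g⁻¹).1 := by
            simp only [Matrix.mul_assoc]
        _ = _ := by
            rw [unip_conj]
            simp only [Matrix.mul_add, Matrix.add_mul, Matrix.mul_smul, Matrix.smul_mul]
    rw [e]
    simp only [Matrix.add_apply, Matrix.smul_apply, smul_eq_mul]
    ring
  -- tails
  let U : ℕ → Set (X k) := fun N => ⋃ k ≥ N, S k
  have hU : Tendsto (fun N => m (U N)) atTop (𝓝 (m (⋂ N, U N))) := by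
    apply tendsto_measure_iInter_atTop
    · intro N
      exact (MeasurableSet.biUnion (Set.to_countable _) fun k _ => hSm k).nullMeasurableSet
    · intro N M hNM
      exact Set.biUnion_subset_biUnion_left (fun k hk => le_trans hNM hk)
    · exact ⟨0, measure_ne_top _ _⟩
  have hempty : (⋂ N, U N) = ∅ := by
    ext p
    simp only [Set.mem_iInter, Set.mem_empty_iff_false, iff_false, not_forall]
    obtain ⟨N, hN⟩ := (hfin p).bddAbove
    refine ⟨N + 1, ?_⟩
    simp only [U, Set.mem_iUnion, not_exists]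
    intro k hk hp
    have := hN hp
    omega
  rw [hempty, measure_empty] at hU
  have hle : ∀ N, m (SX d) ≤ m (U N) := by
    intro N
    rw [← hS N]
    exact measure_mono (Set.subset_biUnion_of_mem (u := S) (show N ∈ {k | k ≥ N} from le_refl N))
  exact le_antisymm (ge_of_tendsto' hU hle) bot_le

end Vale.Agent.TorusPackets
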