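import Mathlib
import Vale.Agent.TorusPackets.Null

/-! # Packets of orders containing a fixed element -/

namespace Vale.Agent.TorusPackets

open MeasureTheory Filter Topology Matrix

variable {K : Type} [Field K]

theorem packet_subset_SX {k : ℕ} (O : Subring K) (σ : Fin (k + 1) ≃ (K →+* ℝ)) (δ : K)
    (hδ : δ ∈ O) : ∀ S ∈ packet O σ, S ⊆ SX (fun j => σ j δ) := by
  rintro _ ⟨I, hI, w, c, g, hc, hg, rfl⟩
  apply orbit_subset_SX
  apply mem_SG_of_stable
  intro v hv
  unfold rowLattice at hv ⊢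
  rw [hg] at hv ⊢
  obtain ⟨α, hα, hv⟩ := hv
  refine ⟨δ * α, (hI.1 δ).1 hδ α hα, ?_⟩
  intro j
  change v j * σ j δ = _
  rw [hv j, map_mul]
  ring

theorem packetMeasure_compl {k : ℕ} (O : Subring K) (σ : Fin (k + 1) ≃ (K →+* ℝ)) (δ : K)
    (hδ : δ ∈ O) : packetMeasure O σ (SX (fun j => σ j δ))ᶜ = 0 := by
  have hm : MeasurableSet (SX (fun j => σ j δ))ᶜ := (isClosed_SX _).measurableSet.compl
  unfold packetMeasure
  rw [Measure.smul_apply, Measure.sum_apply _ hm]
  have : ∀ S : packet O σ, (vol S.1 • orbitProb S.1) (SX (fun j => σ j δ))ᶜ = 0 := by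
    intro S
    rw [Measure.smul_apply]
    have h0 : orbitProb S.1 (SX (fun j => σ j δ))ᶜ = 0 := by
      unfold orbitProb
      split_ifs with h
      · have h2 := h.choose_spec.2.1
        refine measure_mono_null ?_ h2
        exact Set.compl_subset_compl.2 (packet_subset_SX O σ δ hδ _ S.2)
      · simp
    rw [h0, smul_zero]
  simp only [this, tsum_zero, smul_zero]

theorem not_convergesTo {k : ℕ} (d : Fin (k + 1) → ℝ) (i j : Fin (k + 1)) (hij : d i ≠ d j)
    (μ : ℕ → Measure (X k)) (hμ : ∀ i, μ i (SX d)ᶜ = 0) (m : Measure (X k))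
    (hm : IsInvariantProb m) : ¬ ConvergesTo μ m := by
  intro hconv
  have := hm.1
  have h0 := measure_SX_eq_zero d i j hij m hm
  have h1 : m (SX d)ᶜ ≠ 0 := by
    rw [measure_compl (isClosed_SX d).measurableSet (measure_ne_top _ _), h0, measure_univ]
    simp
  obtain ⟨x, hx, hpos⟩ := exists_mem_forall_mem_nhdsWithin_pos_measure h1
  -- compact neighbourhood
  obtain ⟨C, hC, hxC, hCS⟩ := exists_compact_subset (isClosed_SX d).isOpen_compl hx
  obtain ⟨f, hf1, hf0, hfc, hf01⟩ := exists_continuous_one_zero_of_isCompact hC (isClosed_SX d)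
    (Set.disjoint_left.2 fun y hy hy' => hCS hy hy')
  have hCpos : 0 < m C := by
    apply hpos
    exact mem_nhdsWithin_of_mem_nhds (mem_interior_iff_mem_nhds.1 hxC)
  have h2 : ∀ l, ∫ y, f y ∂(μ l) = 0 := by
    intro l
    apply integral_eq_zero_of_ae
    rw [Filter.EventuallyEq, ae_iff]
    refine measure_mono_null ?_ (hμ l)
    intro y hy hyS
    exact hy (hf0 hyS)
  have h3 := hconv.1 f f.continuous hfc
  simp only [h2] at h3
  have h4 : ∫ y, f y ∂m = 0 := (tendsto_nhds_unique h3 tendsto_const_nhds)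
  have hint : Integrable (fun y => f y) m := f.continuous.integrable_of_hasCompactSupport hfc
  have h5 : (m C).toReal ≤ ∫ y, f y ∂m := by
    calc (m C).toReal = ∫ y in C, (1 : ℝ) ∂m := by simp [Measure.real]
      _ = ∫ y in C, f y ∂m := by
          apply setIntegral_congr_fun hC.isClosed.measurableSet
          intro y hy
          exact (hf1 hy).symm
      _ ≤ ∫ y, f y ∂m := setIntegral_le_integral hint (ae_of_all _ fun y => (hf01 y).1)
  rw [h4] at h5
  have h6 : 0 < (m C).toReal := ENNReal.toReal_pos hCpos.ne' (measure_ne_top _ _)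
  linarith

end Vale.Agent.TorusPackets
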