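import Mathlib
import Vale.Agent.TorusPackets.Packet
import Vale.Agent.TorusPackets.Orders
import Vale.Agent.TorusPackets.Field

/-! # Composite degrees: assembly -/

namespace Vale.Agent.TorusPackets

open MeasureTheory Filter

theorem conclusion (k : ℕ) (K : Type) [Field K] [NumberField K]
    (σ : Fin (k + 1) ≃ (K →+* ℝ)) (δ : K) (hδ : IsIntegral ℤ δ)
    (hlt : Subalgebra.toSubmodule (Algebra.adjoin ℚ {δ}) < ⊤) (i j : Fin (k + 1))
    (hij : σ i δ ≠ σ j δ) :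
    ∃ O : ℕ → Subring K, (∀ l, IsOrder (O l)) ∧ Tendsto (fun l => absDisc (O l)) atTop atTop ∧
      (∃ Z : Set (X k), IsClosed Z ∧ (∀ l, ∀ S ∈ packet (O l) σ, S ⊆ Z) ∧
        ∀ m : Measure (X k), IsInvariantProb m → m Z = 0) ∧
      ∀ m : Measure (X k), IsInvariantProb m → ∀ φ : ℕ → ℕ, StrictMono φ →
        ¬ ConvergesTo (fun l => packetMeasure (O (φ l)) σ) m := by
  refine ⟨fun l => ord δ hδ (l + 1), fun l => isOrder_ord δ hδ (l + 1) (Nat.succ_ne_zero l),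
    ?_, ?_, ?_⟩
  · exact tendsto_absDisc δ hδ hlt
  · refine ⟨SX (fun l => σ l δ), isClosed_SX _, ?_, ?_⟩
    · intro l
      exact packet_subset_SX _ σ δ (mem_ord_self δ hδ (l + 1))
    · intro m hm
      exact measure_SX_eq_zero _ i j hij m hm
  · intro m hm φ _
    refine not_convergesTo (fun l => σ l δ) i j hij _ ?_ m hm
    intro l
    exact packetMeasure_compl _ σ δ (mem_ord_self δ hδ (φ l + 1))

theorem main (k : ℕ) (h4 : 4 ≤ k + 1) (hc : ¬ Nat.Prime (k + 1)) :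
    ∃ (K : Type) (_ : Field K) (_ : NumberField K) (σ : Fin (k + 1) ≃ (K →+* ℝ))
      (O : ℕ → Subring K), Module.finrank ℚ K = k + 1 ∧ (∀ i, IsOrder (O i)) ∧
      Tendsto (fun i => absDisc (O i)) atTop atTop ∧
      (∃ Z : Set (X k), IsClosed Z ∧ (∀ i, ∀ S ∈ packet (O i) σ, S ⊆ Z) ∧
        ∀ m : Measure (X k), IsInvariantProb m → m Z = 0) ∧
      ∀ m : Measure (X k), IsInvariantProb m → ∀ φ : ℕ → ℕ, StrictMono φ →
        ¬ ConvergesTo (fun i => packetMeasure (O (φ i)) σ) m := by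
  obtain ⟨a, b, ha, hb, hab⟩ : ∃ a b, 2 ≤ a ∧ 2 ≤ b ∧ k + 1 = a * b := by
    obtain ⟨a, ha1, ha2, ha3⟩ := Nat.exists_dvd_of_not_prime2 (by omega) hc
    obtain ⟨b, hb⟩ := ha1
    refine ⟨a, b, ha2, ?_, hb⟩
    by_contra hcon
    push Not at hcon
    interval_cases b
    · omega
    · omega
  obtain ⟨K, _, _, σ, δ, hfr, hδ, ⟨i, j, hij⟩, hlt⟩ := exists_field a b ha hb
  rw [← hab] at hfr
  obtain ⟨O, h1, h2, h3, h5⟩ := conclusion k K ((finCongr hab).trans σ) δ hδ hlt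
    ((finCongr hab).symm i) ((finCongr hab).symm j) (by simpa using hij)
  exact ⟨K, inferInstance, inferInstance, _, O, hfr, h1, h2, h3, h5⟩

end Vale.Agent.TorusPackets
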